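import Mathlib
import Vale.Agent.Lib.P243.CountFinal

open MeasureTheory
open scoped ENNReal

namespace Vale.Agent.Results.P243.A_DirectionCount

/-- Bang's half-area cylinder covering problem, strong (directionwise relative area) form:
lower bounds in terms of the number `J` of distinct axis lines.

`K` is a convex body in Euclidean 3-space.  The `i`-th cylinder is `B i + ℝ (d i)`, with unit
axis direction `d i` and base `B i` contained in the plane through the origin orthogonal to
`d i`; the cylinders cover `K`.  Every axis direction is, up to sign, one of the `J` vectors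
`dir j`.  The map `x ↦ x - ⟨x, d i⟩ d i` is the orthogonal projection onto the plane orthogonal
to `d i`, `Measure.euclideanHausdorffMeasure 2` is the two-dimensional Hausdorff measure
normalised to agree with Lebesgue measure on planes (planar area), and `R` is the directionwise
relative area of the covering, the sum of `area (B i) / area (projection of K)`.

Then `R ≥ 1/3 + 2 / (9 √(3 J))`; moreover every real `ρ ≤ 1` with `R ≤ ρ` satisfies
`3 ρ - 2 ρ √ρ / √J ≥ 1`; in particular `R ≥ 1/2` when `J ≤ 2` and `R ≥ 4/9` when `J ≤ 3`. -/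
theorem result {ι : Type} [Fintype ι]
    (K : Set (EuclideanSpace ℝ (Fin 3))) (hK : Convex ℝ K) (hKc : IsCompact K)
    (hKi : (interior K).Nonempty)
    (d : ι → EuclideanSpace ℝ (Fin 3)) (hd1 : ∀ i, ‖d i‖ = 1)
    (B : ι → Set (EuclideanSpace ℝ (Fin 3))) (hB : ∀ i, ∀ x ∈ B i, inner ℝ x (d i) = 0)
    (hcov : K ⊆ ⋃ i, {x | ∃ b ∈ B i, ∃ s : ℝ, x = b + s • d i})
    (J : ℕ) (dir : Fin J → EuclideanSpace ℝ (Fin 3))
    (hdir : ∀ i, ∃ j, d i = dir j ∨ d i = -dir j)
    (R : ℝ≥0∞)
    (hR : R = ∑ i,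
      (Measure.euclideanHausdorffMeasure 2 : Measure (EuclideanSpace ℝ (Fin 3))) (B i) /
        (Measure.euclideanHausdorffMeasure 2 : Measure (EuclideanSpace ℝ (Fin 3)))
          ((fun x => x - inner ℝ x (d i) • d i) '' K)) :
    ENNReal.ofReal (1 / 3 + 2 / (9 * Real.sqrt (3 * J))) ≤ R
      ∧ (∀ ρ : ℝ, ρ ≤ 1 → R ≤ ENNReal.ofReal ρ →
          1 ≤ 3 * ρ - 2 * ρ * Real.sqrt ρ / Real.sqrt J)
      ∧ (J ≤ 2 → (1 / 2 : ℝ≥0∞) ≤ R)
      ∧ (J ≤ 3 → (4 / 9 : ℝ≥0∞) ≤ R) :=
  Vale.Agent.Lib.P243.family_count_final (by simp) volume hK hKc hKi d hd1 B hB hcov J dir hdir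
    R hR

end Vale.Agent.Results.P243.A_DirectionCount
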