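import Mathlib
import Vale.Agent.Lib.P243.helper23.Ell.Half

open MeasureTheory
open scoped ENNReal

namespace Vale.Agent.Results.P243.B_SymmetricHalf

/-- Bang's half-area inequality for centrally symmetric convex bodies and cylinders of arbitrary
directions.

`K` is a convex body of Euclidean 3-space (compact, convex, nonempty interior) that is symmetric
about the point `c`: with every point `x` it contains the reflected point `c + c - x`.  The
`i`-th cylinder is `B i + ℝ (d i)`, with an arbitrary unit axis direction `d i` and base `B i`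
contained in the plane through the origin orthogonal to `d i`.  The map `x ↦ x - ⟨x, w⟩ w` is the
orthogonal projection onto the plane orthogonal to the unit vector `w`, and
`Measure.euclideanHausdorffMeasure 2` is the two-dimensional Hausdorff measure normalised to
agree with Lebesgue measure on planes (planar area).

If the cylinders cover `K`, then
* (first part) the total base area is at least one half of the least area of an orthogonal
  projection of `K` onto a plane;
* (second part) more precisely it is at least `4π/25` of that least area (and `4π/25 > 1/2`);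
* (third part) the directionwise relative area of the covering is at least `19/48`. -/
theorem result {ι : Type} [Fintype ι]
    (K : Set (EuclideanSpace ℝ (Fin 3))) (hK : Convex ℝ K) (hKc : IsCompact K)
    (hKi : (interior K).Nonempty)
    (c : EuclideanSpace ℝ (Fin 3)) (hsym : ∀ x ∈ K, c + c - x ∈ K)
    (d : ι → EuclideanSpace ℝ (Fin 3)) (hd1 : ∀ i, ‖d i‖ = 1)
    (B : ι → Set (EuclideanSpace ℝ (Fin 3))) (hB : ∀ i, ∀ x ∈ B i, inner ℝ x (d i) = 0)
    (hcov : K ⊆ ⋃ i, {x | ∃ b ∈ B i, ∃ s : ℝ, x = b + s • d i}) :
    (1 / 2 : ℝ≥0∞) * (⨅ w : {w : EuclideanSpace ℝ (Fin 3) // ‖w‖ = 1},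
          (Measure.euclideanHausdorffMeasure 2 : Measure (EuclideanSpace ℝ (Fin 3)))
            ((fun x => x - inner ℝ x (w : EuclideanSpace ℝ (Fin 3)) •
              (w : EuclideanSpace ℝ (Fin 3))) '' K))
        ≤ ∑ i, (Measure.euclideanHausdorffMeasure 2 : Measure (EuclideanSpace ℝ (Fin 3))) (B i)
      ∧ ENNReal.ofReal (4 * Real.pi / 25) *
          (⨅ w : {w : EuclideanSpace ℝ (Fin 3) // ‖w‖ = 1},
            (Measure.euclideanHausdorffMeasure 2 : Measure (EuclideanSpace ℝ (Fin 3)))
              ((fun x => x - inner ℝ x (w : EuclideanSpace ℝ (Fin 3)) •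
                (w : EuclideanSpace ℝ (Fin 3))) '' K))
        ≤ ∑ i, (Measure.euclideanHausdorffMeasure 2 : Measure (EuclideanSpace ℝ (Fin 3))) (B i)
      ∧ (19 / 48 : ℝ≥0∞) ≤
        ∑ i, (Measure.euclideanHausdorffMeasure 2 : Measure (EuclideanSpace ℝ (Fin 3))) (B i) /
          (Measure.euclideanHausdorffMeasure 2 : Measure (EuclideanSpace ℝ (Fin 3)))
            ((fun x => x - inner ℝ x (d i) • d i) '' K) :=
  ⟨Vale.Agent.Lib.P243.helper23.Ell.sym_center_half (by simp) hK hKc hKi c hsym d hd1 B hB hcov,
    Vale.Agent.Lib.P243.helper23.Ell.sym_center_pi (by simp) hK hKc hKi c hsym d hd1 B hB hcov,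
    (Vale.Agent.Lib.P243.helper23.sym_center_both (by simp) volume hK hKc hKi c hsym d hd1 B hB
      hcov).1⟩

end Vale.Agent.Results.P243.B_SymmetricHalf
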