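import Mathlib
import Vale.Agent.Lib.P243.helper23.CoplanarEucl

open MeasureTheory
open scoped ENNReal

namespace Vale.Agent.Results.P243.C_CoplanarAxes

/-- Bang's half-area question in its original form, for all finite coverings whose cylinder
axes are parallel to one plane (any number of cylinders and of distinct axis directions): the
total base area is at least half of the smallest area of an orthogonal projection of `K` onto a
plane.

`K` is a convex body in Euclidean 3-space.  The `i`-th cylinder is `B i + ℝ (d i)`, with unit
axis direction `d i` and base `B i` contained in the plane through the origin orthogonal to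
`d i`.  The axes are parallel to one plane: all `d i` are orthogonal to a nonzero vector `n0`.
For a unit vector `w`, the map `x ↦ x - ⟨x, w⟩ w` is the orthogonal projection onto the plane
orthogonal to `w`, and `Measure.euclideanHausdorffMeasure 2` is planar area (two-dimensional
Hausdorff measure normalised to agree with Lebesgue measure on planes). -/
theorem result {ι : Type} [Fintype ι]
    (K : Set (EuclideanSpace ℝ (Fin 3))) (hK : Convex ℝ K) (hKc : IsCompact K)
    (hKi : (interior K).Nonempty)
    (d : ι → EuclideanSpace ℝ (Fin 3)) (hd1 : ∀ i, ‖d i‖ = 1)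
    (n0 : EuclideanSpace ℝ (Fin 3)) (hn0 : n0 ≠ 0) (hperp : ∀ i, inner ℝ (d i) n0 = 0)
    (B : ι → Set (EuclideanSpace ℝ (Fin 3))) (hB : ∀ i, ∀ x ∈ B i, inner ℝ x (d i) = 0)
    (hcov : K ⊆ ⋃ i, {x | ∃ b ∈ B i, ∃ s : ℝ, x = b + s • d i}) :
    (1 / 2 : ℝ≥0∞) *
        (⨅ w : {w : EuclideanSpace ℝ (Fin 3) // ‖w‖ = 1},
          (Measure.euclideanHausdorffMeasure 2 : Measure (EuclideanSpace ℝ (Fin 3)))
            ((fun x => x - inner ℝ x (w : EuclideanSpace ℝ (Fin 3)) •
              (w : EuclideanSpace ℝ (Fin 3))) '' K))
      ≤ ∑ i, (Measure.euclideanHausdorffMeasure 2 : Measure (EuclideanSpace ℝ (Fin 3))) (B i) :=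
  Vale.Agent.Lib.P243.helper23.coplanar_amin (by simp) hK hKc (hKi.mono interior_subset) d hd1
    hn0 hperp B hB hcov

end Vale.Agent.Results.P243.C_CoplanarAxes
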