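import Mathlib
import Vale.Agent.Lib.P243.TetraAll

open MeasureTheory
open scoped ENNReal

namespace Vale.Agent.Results.P243.E_TetrahedronAllAxes

/-- Bang's half-area cylinder covering problem for a tetrahedron and cylinders of arbitrary
directions: the constant `7/20`, which is larger than the general constant `1/3`.

`p 0, p 1, p 2, p 3` are affinely independent points of Euclidean 3-space and the body is the
tetrahedron `convexHull ℝ (Set.range p)`.  The `i`-th cylinder is `B i + ℝ (d i)`, with an
arbitrary unit axis direction `d i` and base `B i` contained in the plane through the origin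
orthogonal to `d i`.  The map `x ↦ x - ⟨x, d i⟩ d i` is the orthogonal projection onto that
plane, and `Measure.euclideanHausdorffMeasure 2` is the two-dimensional Hausdorff measure
normalised to agree with Lebesgue measure on planes (planar area).

If the cylinders cover the tetrahedron, then (first part) the directionwise relative area of the
covering is at least `7/20`, and (second part) the total base area is at least `7/20` of the
least area of an orthogonal projection of the tetrahedron onto a plane. -/
theorem result {ι : Type} [Fintype ι]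
    (p : Fin 4 → EuclideanSpace ℝ (Fin 3)) (hp : AffineIndependent ℝ p)
    (d : ι → EuclideanSpace ℝ (Fin 3)) (hd1 : ∀ i, ‖d i‖ = 1)
    (B : ι → Set (EuclideanSpace ℝ (Fin 3))) (hB : ∀ i, ∀ x ∈ B i, inner ℝ x (d i) = 0)
    (hcov : convexHull ℝ (Set.range p) ⊆ ⋃ i, {x | ∃ b ∈ B i, ∃ s : ℝ, x = b + s • d i}) :
    (7 / 20 : ℝ≥0∞) ≤
        ∑ i, (Measure.euclideanHausdorffMeasure 2 : Measure (EuclideanSpace ℝ (Fin 3))) (B i) /
          (Measure.euclideanHausdorffMeasure 2 : Measure (EuclideanSpace ℝ (Fin 3)))
            ((fun x => x - inner ℝ x (d i) • d i) '' convexHull ℝ (Set.range p))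
      ∧ (7 / 20 : ℝ≥0∞) * (⨅ w : {w : EuclideanSpace ℝ (Fin 3) // ‖w‖ = 1},
          (Measure.euclideanHausdorffMeasure 2 : Measure (EuclideanSpace ℝ (Fin 3)))
            ((fun x => x - inner ℝ x (w : EuclideanSpace ℝ (Fin 3)) •
              (w : EuclideanSpace ℝ (Fin 3))) '' convexHull ℝ (Set.range p)))
        ≤ ∑ i, (Measure.euclideanHausdorffMeasure 2 : Measure (EuclideanSpace ℝ (Fin 3))) (B i) :=
  Vale.Agent.Lib.P243.tetra_all_both (by simp) volume hp d hd1 B hB hcov

end Vale.Agent.Results.P243.E_TetrahedronAllAxes
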